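import Vale.Agent.P141.Defs

/-!
# Principal values of products of three functions, two of them Schwartz, one bounded and C^1

The limit of the truncated integrals exists, and a bound for the `L^p` norms of all truncations
passes to the limit (Fatou).
-/

namespace Vale.Agent.P141.R2.H898

open MeasureTheory Filter Topology Set
open scoped ENNReal SchwartzMap

/-- `{t : ε < |t| < R}` -/
def shell (ε R : ℝ) : Set ℝ := {t : ℝ | ε < |t| ∧ |t| < R}

theorem shell_meas (ε R : ℝ) : MeasurableSet (shell ε R) :=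
  (measurableSet_lt measurable_const measurable_abs).inter
    (measurableSet_lt measurable_abs measurable_const)

theorem neg_mem_shell {ε R t : ℝ} : -t ∈ shell ε R ↔ t ∈ shell ε R := by
  show (ε < |-t| ∧ |-t| < R) ↔ (ε < |t| ∧ |t| < R)
  rw [abs_neg]

theorem intOn_shell {F : ℝ → ℂ} (hF : Continuous F) (hi : Integrable F) {ε R : ℝ} (hε : 0 < ε) :
    IntegrableOn (fun t : ℝ => F t / (t : ℂ)) (shell ε R) := by
  have hi' : IntegrableOn (fun t => ‖F t‖ * ε⁻¹) (shell ε R) :=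
    (hi.norm.mul_const _).integrableOn
  refine hi'.mono' ?_ ?_
  · have hm : Measurable fun t : ℝ => F t / (t : ℂ) := hF.measurable.div (by fun_prop)
    exact hm.aestronglyMeasurable
  · refine (ae_restrict_iff' (shell_meas ε R)).2 (ae_of_all _ fun t ht => ?_)
    rw [norm_div, div_eq_mul_inv]
    have ht' : ε ≤ |t| := ht.1.le
    gcongr
    simpa using ht'

/-- the even part of the singular integrand -/
noncomputable def ev (F : ℝ → ℂ) (t : ℝ) : ℂ := (F t - F (-t)) / (t : ℂ)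

theorem trunc_half {F : ℝ → ℂ} (hF : Continuous F) (hi : Integrable F) {ε R : ℝ} (hε : 0 < ε) :
    ∫ t in shell ε R, F t / (t : ℂ) =
      (1 / 2 : ℂ) * ∫ t, (shell ε R).indicator (ev F) t := by
  set S : Set ℝ := shell ε R with hS
  have hSm : MeasurableSet S := shell_meas ε R
  set G : ℝ → ℂ := fun t => F t / (t : ℂ) with hG
  have hGi : Integrable (S.indicator G) := (intOn_shell hF hi hε).integrable_indicator hSm
  have h1 : ∫ t in S, G t = ∫ t, S.indicator G t := by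
    rw [integral_indicator hSm]
  have h2 : ∫ t, S.indicator G (-t) = ∫ t, S.indicator G t := integral_neg_eq_self _ _
  have h3 : ∫ t, S.indicator (ev F) t =
      (∫ t, S.indicator G t) + (∫ t, S.indicator G (-t)) := by
    rw [← integral_add hGi hGi.comp_neg]
    refine integral_congr_ae (ae_of_all _ fun t => ?_)
    by_cases ht : t ∈ S
    · have ht' : -t ∈ S := neg_mem_shell.2 ht
      simp only [Set.indicator_of_mem ht, Set.indicator_of_mem ht', hG, ev]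
      push_cast
      rw [div_neg, sub_div, sub_eq_add_neg]
    · have ht' : -t ∉ S := fun h => ht (neg_mem_shell.1 h)
      simp only [Set.indicator_of_notMem ht, Set.indicator_of_notMem ht', add_zero]
  rw [h3, h2, h1]
  ring

/-- existence of the principal value -/
theorem tendsto_pv {F : ℝ → ℂ} (hF : Continuous F) (hi : Integrable F) {L : ℝ} (hL : 0 ≤ L)
    (hl : ∀ t, |t| ≤ 1 → ‖F t - F (-t)‖ ≤ L * |t|) :
    Tendsto (fun q : ℝ × ℝ => ∫ t in shell q.1 q.2, F t / (t : ℂ))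
      (𝓝[>] (0 : ℝ) ×ˢ atTop) (𝓝 ((1 / 2 : ℂ) * ∫ t, ev F t)) := by
  have main : Tendsto (fun q : ℝ × ℝ => ∫ t, (shell q.1 q.2).indicator (ev F) t)
      (𝓝[>] (0 : ℝ) ×ˢ atTop) (𝓝 (∫ t, ev F t)) := by
    have hm : Measurable (ev F) := by
      unfold ev
      exact (hF.measurable.sub (hF.measurable.comp measurable_neg)).div (by fun_prop)
    refine tendsto_integral_filter_of_dominated_convergence
      (fun t => (Set.Icc (-1 : ℝ) 1).indicator (fun _ => L) t + (‖F t‖ + ‖F (-t)‖)) ?_ ?_ ?_ ?_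
    · exact Eventually.of_forall fun q =>
        (hm.indicator (shell_meas q.1 q.2)).aestronglyMeasurable
    · refine Eventually.of_forall fun q => ae_of_all _ fun t => ?_
      refine (norm_indicator_le_norm_self _ _).trans ?_
      unfold ev
      rw [norm_div, Complex.norm_real, Real.norm_eq_abs]
      by_cases ht : |t| ≤ 1
      · have hmem : t ∈ Set.Icc (-1 : ℝ) 1 := abs_le.1 ht
        rw [Set.indicator_of_mem hmem]
        have h1 : ‖F t - F (-t)‖ / |t| ≤ L := by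
          apply div_le_of_le_mul₀ (abs_nonneg _) hL
          exact hl t ht
        have h2 : 0 ≤ ‖F t‖ + ‖F (-t)‖ := by positivity
        linarith
      · push Not at ht
        have h0 : 0 ≤ (Set.Icc (-1 : ℝ) 1).indicator (fun _ => L) t :=
          Set.indicator_nonneg (fun _ _ => hL) _
        have h1 : ‖F t - F (-t)‖ / |t| ≤ ‖F t - F (-t)‖ := div_le_self (norm_nonneg _) ht.le
        have h2 := norm_sub_le (F t) (F (-t))
        linarith only [h0, h1, h2]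
    · refine Integrable.add ?_ ?_
      · exact (integrableOn_const (by simp) (by simp)).integrable_indicator measurableSet_Icc
      · exact hi.norm.add hi.comp_neg.norm
    · have h0 : ∀ᵐ t : ℝ, t ≠ 0 := by
        rw [ae_iff]; simp
      filter_upwards [h0] with t ht
      apply tendsto_const_nhds.congr'
      have h1 : ∀ᶠ ε : ℝ in 𝓝[>] (0 : ℝ), ε < |t| :=
        nhdsWithin_le_nhds (Iio_mem_nhds (abs_pos.2 ht))
      have h2 : ∀ᶠ R : ℝ in atTop, |t| < R := eventually_gt_atTop _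
      filter_upwards [h1.prod_mk h2] with q hq
      have hmem : t ∈ shell q.1 q.2 := hq
      rw [Set.indicator_of_mem hmem]
  refine (main.const_mul (1 / 2 : ℂ)).congr' ?_
  have h1 : ∀ᶠ ε : ℝ in 𝓝[>] (0 : ℝ), 0 < ε := self_mem_nhdsWithin
  filter_upwards [h1.prod_inl (atTop : Filter ℝ)] with q hq
  exact (trunc_half hF hi hq).symm

/-- bounded and `C^1` -/
def CB (f : ℝ → ℂ) : Prop := ContDiff ℝ 1 f ∧ ∃ B : ℝ, ∀ x, ‖f x‖ ≤ B

theorem CB_schwartz (f : 𝓢(ℝ, ℂ)) : CB f := by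
  refine ⟨f.smooth 1, ‖f.toBoundedContinuousFunction‖, fun x => ?_⟩
  exact f.toBoundedContinuousFunction.norm_coe_le_norm x

theorem lip_of_contDiff {F : ℝ → ℂ} (hF : ContDiff ℝ 1 F) :
    ∃ L : ℝ, 0 ≤ L ∧ ∀ t, |t| ≤ 1 → ‖F t - F (-t)‖ ≤ L * |t| := by
  have hd : Continuous (deriv F) := hF.continuous_deriv le_rfl
  obtain ⟨C, hC⟩ := (isCompact_Icc (a := (-1 : ℝ)) (b := 1)).exists_bound_of_continuousOn
    hd.continuousOn
  have hC0 : 0 ≤ C := (norm_nonneg _).trans (hC 0 (by constructor <;> norm_num))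
  refine ⟨2 * C, by positivity, fun t ht => ?_⟩
  have h1 : t ∈ Icc (-1 : ℝ) 1 := abs_le.1 ht
  have h2 : -t ∈ Icc (-1 : ℝ) 1 := abs_le.1 (by rwa [abs_neg])
  have h3 := (convex_Icc (-1 : ℝ) 1).norm_image_sub_le_of_norm_deriv_le (𝕜 := ℝ)
    (fun z _ => (hF.differentiable (by simp)).differentiableAt) hC h2 h1
  refine h3.trans (le_of_eq ?_)
  rw [Real.norm_eq_abs, show t - -t = 2 * t by ring, abs_mul, abs_of_pos (by norm_num : (0:ℝ) < 2)]
  ring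

/-- the product of the three functions on the line `x - α t` -/
noncomputable def pr (f₁ f₂ f₃ : ℝ → ℂ) (α₁ α₂ α₃ x t : ℝ) : ℂ :=
  f₁ (x - α₁ * t) * f₂ (x - α₂ * t) * f₃ (x - α₃ * t)

variable {f₁ f₂ f₃ : ℝ → ℂ} {α₁ α₂ α₃ : ℝ}

theorem pr_contDiff (h₁ : CB f₁) (h₂ : CB f₂) (h₃ : CB f₃) (x : ℝ) :
    ContDiff ℝ 1 (pr f₁ f₂ f₃ α₁ α₂ α₃ x) := by
  have g : ∀ α : ℝ, ContDiff ℝ 1 fun t : ℝ => x - α * t := fun α => by fun_prop
  exact ((h₁.1.comp (g α₁)).mul (h₂.1.comp (g α₂))).mul (h₃.1.comp (g α₃))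

/-- one of the three functions is integrable and has a nonzero slope -/
def OneInt (f₁ f₂ f₃ : ℝ → ℂ) (α₁ α₂ α₃ : ℝ) : Prop :=
  (Integrable f₁ ∧ α₁ ≠ 0) ∨ (Integrable f₂ ∧ α₂ ≠ 0) ∨ (Integrable f₃ ∧ α₃ ≠ 0)

theorem comp_int {f : ℝ → ℂ} (hf : Integrable f) {α : ℝ} (hα : α ≠ 0) (x : ℝ) :
    Integrable fun t : ℝ => f (x - α * t) := by
  have h1 : Integrable fun t : ℝ => f (x - t) := hf.comp_sub_left x
  exact h1.comp_mul_left' hα

theorem pr_int (h₁ : CB f₁) (h₂ : CB f₂) (h₃ : CB f₃) (ho : OneInt f₁ f₂ f₃ α₁ α₂ α₃) (x : ℝ) :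
    Integrable (pr f₁ f₂ f₃ α₁ α₂ α₃ x) := by
  obtain ⟨c₁, B₁, b₁⟩ := h₁
  obtain ⟨c₂, B₂, b₂⟩ := h₂
  obtain ⟨c₃, B₃, b₃⟩ := h₃
  have hc : Continuous (pr f₁ f₂ f₃ α₁ α₂ α₃ x) :=
    (pr_contDiff ⟨c₁, B₁, b₁⟩ ⟨c₂, B₂, b₂⟩ ⟨c₃, B₃, b₃⟩ x).continuous
  have n₁ : 0 ≤ B₁ := (norm_nonneg _).trans (b₁ 0)
  have n₂ : 0 ≤ B₂ := (norm_nonneg _).trans (b₂ 0)
  have n₃ : 0 ≤ B₃ := (norm_nonneg _).trans (b₃ 0)
  rcases ho with ⟨hi, ha⟩ | ⟨hi, ha⟩ | ⟨hi, ha⟩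
  · refine ((comp_int hi ha x).norm.mul_const (B₂ * B₃)).mono' hc.aestronglyMeasurable
      (ae_of_all _ fun t => ?_)
    unfold pr
    rw [norm_mul, norm_mul, mul_assoc]
    gcongr
    · exact b₂ _
    · exact b₃ _
  · refine ((comp_int hi ha x).norm.mul_const (B₁ * B₃)).mono' hc.aestronglyMeasurable
      (ae_of_all _ fun t => ?_)
    unfold pr
    rw [norm_mul, norm_mul]
    calc ‖f₁ (x - α₁ * t)‖ * ‖f₂ (x - α₂ * t)‖ * ‖f₃ (x - α₃ * t)‖
        ≤ B₁ * ‖f₂ (x - α₂ * t)‖ * B₃ := by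
          gcongr
          · exact b₁ _
          · exact b₃ _
      _ = ‖f₂ (x - α₂ * t)‖ * (B₁ * B₃) := by ring
  · refine ((comp_int hi ha x).norm.mul_const (B₁ * B₂)).mono' hc.aestronglyMeasurable
      (ae_of_all _ fun t => ?_)
    unfold pr
    rw [norm_mul, norm_mul]
    calc ‖f₁ (x - α₁ * t)‖ * ‖f₂ (x - α₂ * t)‖ * ‖f₃ (x - α₃ * t)‖
        ≤ B₁ * B₂ * ‖f₃ (x - α₃ * t)‖ := by
          gcongr
          · exact b₁ _
          · exact b₂ _
      _ = ‖f₃ (x - α₃ * t)‖ * (B₁ * B₂) := by ring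

/-- the truncated integral with slopes `α₁`, `α₂`, `α₃` -/
noncomputable def trS (f₁ f₂ f₃ : ℝ → ℂ) (α₁ α₂ α₃ ε R x : ℝ) : ℂ :=
  ∫ t in {t : ℝ | ε < |t| ∧ |t| < R},
    f₁ (x - α₁ * t) * f₂ (x - α₂ * t) * f₃ (x - α₃ * t) / (t : ℂ)

/-- the limit of the truncated integrals -/
noncomputable def limS (f₁ f₂ f₃ : ℝ → ℂ) (α₁ α₂ α₃ x : ℝ) : ℂ :=
  limUnder (𝓝[>] (0 : ℝ) ×ˢ atTop) fun q : ℝ × ℝ => trS f₁ f₂ f₃ α₁ α₂ α₃ q.1 q.2 x

/-- **existence of the limit** -/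
theorem tendsto_trS (h₁ : CB f₁) (h₂ : CB f₂) (h₃ : CB f₃) (ho : OneInt f₁ f₂ f₃ α₁ α₂ α₃)
    (x : ℝ) :
    Tendsto (fun q : ℝ × ℝ => trS f₁ f₂ f₃ α₁ α₂ α₃ q.1 q.2 x)
      (𝓝[>] (0 : ℝ) ×ˢ atTop) (𝓝 (limS f₁ f₂ f₃ α₁ α₂ α₃ x)) := by
  obtain ⟨L, hL, hl⟩ := lip_of_contDiff (pr_contDiff (α₁ := α₁) (α₂ := α₂) (α₃ := α₃) h₁ h₂ h₃ x)
  have h := tendsto_pv (pr_contDiff h₁ h₂ h₃ x).continuous (pr_int h₁ h₂ h₃ ho x) hL hl
  have h' : Tendsto (fun q : ℝ × ℝ => trS f₁ f₂ f₃ α₁ α₂ α₃ q.1 q.2 x)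
      (𝓝[>] (0 : ℝ) ×ˢ atTop) (𝓝 ((1 / 2 : ℂ) * ∫ t, ev (pr f₁ f₂ f₃ α₁ α₂ α₃ x) t)) := h
  unfold limS
  rw [h'.limUnder_eq]
  exact h'

theorem trS_meas (h₁ : CB f₁) (h₂ : CB f₂) (h₃ : CB f₃) (ε R : ℝ) :
    StronglyMeasurable (trS f₁ f₂ f₃ α₁ α₂ α₃ ε R) := by
  have hm : StronglyMeasurable (Function.uncurry fun x t : ℝ =>
      f₁ (x - α₁ * t) * f₂ (x - α₂ * t) * f₃ (x - α₃ * t) / (t : ℂ)) := by
    apply Measurable.stronglyMeasurable
    have c₁ := h₁.1.continuous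
    have c₂ := h₂.1.continuous
    have c₃ := h₃.1.continuous
    have hc : Continuous (Function.uncurry fun x t : ℝ =>
        f₁ (x - α₁ * t) * f₂ (x - α₂ * t) * f₃ (x - α₃ * t)) := by
      unfold Function.uncurry
      fun_prop
    have hd : Measurable fun p : ℝ × ℝ => ((p.2 : ℝ) : ℂ) := by fun_prop
    exact hc.measurable.div hd
  unfold trS
  exact hm.integral_prod_right

/-- **Fatou**: a bound for the norms of all truncations holds for the limit -/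
theorem limS_le (h₁ : CB f₁) (h₂ : CB f₂) (h₃ : CB f₃) (ho : OneInt f₁ f₂ f₃ α₁ α₂ α₃)
    {p K : ℝ≥0∞} (hK : ∀ ε R : ℝ, 0 < ε → ε < R →
      eLpNorm (trS f₁ f₂ f₃ α₁ α₂ α₃ ε R) p volume ≤ K) :
    eLpNorm (limS f₁ f₂ f₃ α₁ α₂ α₃) p volume ≤ K := by
  have hs : Tendsto (fun n : ℕ => ((1 / ((n : ℝ) + 1), (n : ℝ) + 2) : ℝ × ℝ)) atTop
      (𝓝[>] (0 : ℝ) ×ˢ atTop) := by
    refine Tendsto.prodMk ?_ ?_
    · refine tendsto_nhdsWithin_iff.2 ⟨tendsto_one_div_add_atTop_nhds_zero_nat, ?_⟩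
      exact Eventually.of_forall fun n => by
        show (0 : ℝ) < 1 / ((n : ℝ) + 1)
        positivity
    · exact tendsto_atTop_add_const_right _ _ tendsto_natCast_atTop_atTop
  have hl : ∀ x, Tendsto (fun n : ℕ =>
      trS f₁ f₂ f₃ α₁ α₂ α₃ (1 / ((n : ℝ) + 1)) ((n : ℝ) + 2) x) atTop
      (𝓝 (limS f₁ f₂ f₃ α₁ α₂ α₃ x)) := fun x =>
    (tendsto_trS h₁ h₂ h₃ ho x).comp hs
  have h := Lp.eLpNorm_lim_le_liminf_eLpNorm (p := p) (μ := volume)
    (f := fun n : ℕ => trS f₁ f₂ f₃ α₁ α₂ α₃ (1 / ((n : ℝ) + 1)) ((n : ℝ) + 2))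
    (fun n => (trS_meas h₁ h₂ h₃ _ _).aestronglyMeasurable)
    (limS f₁ f₂ f₃ α₁ α₂ α₃) (ae_of_all _ hl)
  refine h.trans ?_
  refine (liminf_le_of_frequently_le' (Frequently.of_forall fun n => ?_))
  refine hK _ _ (by positivity) ?_
  have h1 : (1 : ℝ) / ((n : ℝ) + 1) ≤ 1 := by
    rw [div_le_one (by positivity)]
    have : (0 : ℝ) ≤ n := Nat.cast_nonneg n
    linarith
  have h2 : (0 : ℝ) ≤ n := Nat.cast_nonneg n
  linarith

end Vale.Agent.P141.R2.H898
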