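import Vale.Agent.P141.R2.H860.Nil
import Vale.Agent.P141.R2.H898.PV

/-!
# Two-step nilsequences are smooth and bounded
-/

namespace Vale.Agent.P141.R2.H898

open MeasureTheory Filter Topology Set
open Vale.Agent.P141.R2.H860
open scoped ContDiff

variable {d : ℕ}

theorem contDiff_ee : ContDiff ℝ ∞ ee := by
  unfold ee
  have h1 : ContDiff ℝ ∞ fun t : ℝ => (t : ℂ) := Complex.ofRealCLM.contDiff
  exact ((contDiff_const.mul h1).mul contDiff_const).cexp

theorem contDiff_quad (Q : Fin (d + 1) → Fin (d + 1) → ℝ) (l : Fin (d + 1) → ℝ) (c : ℝ)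
    (v : Fin d → ℝ) : ContDiff ℝ ∞ fun x : ℝ => quad Q l c (Fin.cons x v) := by
  have hz : ∀ i : Fin (d + 1), ContDiff ℝ ∞ fun x : ℝ => (Fin.cons x v : Fin (d + 1) → ℝ) i := by
    intro i
    refine Fin.cases ?_ (fun i => ?_) i
    · simp only [Fin.cons_zero]
      exact contDiff_id
    · simp only [Fin.cons_succ]
      exact contDiff_const
  unfold quad
  refine ((ContDiff.sum fun i _ => ContDiff.sum fun j _ => ?_).add
    (ContDiff.sum fun i _ => ?_)).add contDiff_const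
  · exact (contDiff_const.mul (hz i)).mul (hz j)
  · exact contDiff_const.mul (hz i)

theorem contDiff_term {φ : (Fin d → ℝ) → ℂ} (h1 : ContDiff ℝ ∞ φ) (θ : Fin d → ℝ)
    (Q : Fin (d + 1) → Fin (d + 1) → ℝ) (l : Fin (d + 1) → ℝ) (c : ℝ) (n : Fin d → ℤ) :
    ContDiff ℝ ∞ fun x : ℝ => φ (fun i => θ i * x - n i) *
      ee (quad Q l c (Fin.cons x fun i => (n i : ℝ))) := by
  have ha : ContDiff ℝ ∞ fun x : ℝ => (fun i => θ i * x - n i : Fin d → ℝ) := by
    rw [contDiff_pi]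
    intro i
    exact (contDiff_const.mul contDiff_id).sub contDiff_const
  exact (h1.comp ha).mul (contDiff_ee.comp (contDiff_quad Q l c _))

theorem contDiff_nil {φ : (Fin d → ℝ) → ℂ} (h1 : ContDiff ℝ ∞ φ) (h2 : HasCompactSupport φ)
    (θ : Fin d → ℝ) (Q : Fin (d + 1) → Fin (d + 1) → ℝ) (l : Fin (d + 1) → ℝ) (c : ℝ) :
    ContDiff ℝ ∞ (nil φ θ Q l c) := by
  classical
  obtain ⟨M, hM⟩ : ∃ M : ℝ, ∀ u, φ u ≠ 0 → ‖u‖ ≤ M := by
    obtain ⟨M, hM⟩ := h2.isCompact.isBounded.subset_closedBall 0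
    refine ⟨M, fun u hu => ?_⟩
    have := hM (subset_tsupport φ hu)
    simpa using this
  rw [contDiff_iff_contDiffAt]
  intro x₀
  set S : Finset (Fin d → ℤ) := Fintype.piFinset fun i =>
    Finset.Icc (⌊θ i * x₀ - |θ i| - M⌋) (⌈θ i * x₀ + |θ i| + M⌉) with hS
  have hev : nil φ θ Q l c =ᶠ[𝓝 x₀] fun x => ∑ n ∈ S, φ (fun i => θ i * x - n i) *
      ee (quad Q l c (Fin.cons x fun i => (n i : ℝ))) := by
    filter_upwards [Metric.ball_mem_nhds x₀ one_pos] with x hx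
    unfold nil
    refine tsum_eq_sum fun n hn => ?_
    have : φ (fun i => θ i * x - n i) = 0 := by
      by_contra hne
      apply hn
      rw [hS, Fintype.mem_piFinset]
      intro i
      have h3 := hM _ hne
      have h4 := (norm_le_pi_norm (fun i => θ i * x - n i) i).trans h3
      rw [Real.norm_eq_abs, abs_le] at h4
      have h5 : |x - x₀| < 1 := by rwa [Metric.mem_ball, Real.dist_eq] at hx
      have h6 : |θ i * (x - x₀)| ≤ |θ i| := by
        rw [abs_mul]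
        nlinarith [abs_nonneg (θ i), abs_nonneg (x - x₀)]
      rw [abs_le] at h6
      rw [Finset.mem_Icc]
      constructor
      · have h7 : θ i * x₀ - |θ i| - M ≤ n i := by nlinarith [h4.1, h4.2, h6.1, h6.2]
        exact Int.floor_le_iff.2 (by linarith)
      · have h7 : (n i : ℝ) ≤ θ i * x₀ + |θ i| + M := by nlinarith [h4.1, h4.2, h6.1, h6.2]
        exact Int.le_ceil_iff.2 (by linarith)
    rw [this, zero_mul]
  refine ContDiffAt.congr_of_eventuallyEq ?_ hev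
  exact (ContDiff.sum fun n _ => contDiff_term h1 θ Q l c n).contDiffAt

/-- bound which depends on `φ` only -/
theorem nil_bdd {φ : (Fin d → ℝ) → ℂ} (h1 : ContDiff ℝ ∞ φ) (h2 : HasCompactSupport φ) :
    ∃ B : ℝ, ∀ (θ : Fin d → ℝ) (Q : Fin (d + 1) → Fin (d + 1) → ℝ) (l : Fin (d + 1) → ℝ)
      (c x : ℝ), ‖nil φ θ Q l c x‖ ≤ B := by
  obtain ⟨J, ψ, hψ, -, h⟩ := nil_split φ h1 h2
  refine ⟨∑ _j ∈ J, ∫ ξ, ‖ψ ξ‖, fun θ Q l c x => ?_⟩
  have e := h θ Q l c x 0 0
  rw [add_zero, add_zero] at e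
  rw [e]
  refine norm_sum_le_of_le _ fun j _ => ?_
  refine (norm_integral_le_integral_norm _).trans (le_of_eq ?_)
  refine integral_congr_ae (ae_of_all _ fun ξ => ?_)
  simp only [norm_mul, norm_W0, norm_W1, norm_W2, mul_one]

theorem CB_nil {φ : (Fin d → ℝ) → ℂ} (h1 : ContDiff ℝ ∞ φ) (h2 : HasCompactSupport φ)
    (θ : Fin d → ℝ) (Q : Fin (d + 1) → Fin (d + 1) → ℝ) (l : Fin (d + 1) → ℝ) (c : ℝ) :
    CB (nil φ θ Q l c) := by
  obtain ⟨B, hB⟩ := nil_bdd h1 h2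
  exact ⟨(contDiff_nil h1 h2 θ Q l c).of_le (by simp), B, hB θ Q l c⟩

end Vale.Agent.P141.R2.H898
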