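import Vale.Agent.P141.R2.H898.Dual3

/-!
# The trilinear Hilbert transform with one structured argument, in each of the three slots
-/

namespace Vale.Agent.P141.R2.H898

open MeasureTheory Filter Topology Set
open scoped ENNReal SchwartzMap
open Vale.Agent.P141.H97 (bk bk_meas bk_int Nice Simp NN NN_nonneg elp_NN dual)
open Vale.Agent.P141.H115 (nice_schwartz)

theorem truncTHT_eq (f₁ f₂ f₃ : ℝ → ℂ) (ε R x : ℝ) :
    truncTHT f₁ f₂ f₃ ε R x = trS f₁ f₂ f₃ 1 2 3 ε R x := by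
  unfold truncTHT trS
  simp only [one_mul]

theorem THT_eq (f₁ f₂ f₃ : ℝ → ℂ) : THT f₁ f₂ f₃ = limS f₁ f₂ f₃ 1 2 3 := by
  funext x
  unfold THT limS
  simp only [truncTHT_eq]

/-- the limit exists at every point, in each of the three slots -/
theorem tendsto_THT {f₁ f₂ f₃ : ℝ → ℂ} (h₁ : CB f₁) (h₂ : CB f₂) (h₃ : CB f₃)
    (ho : OneInt f₁ f₂ f₃ 1 2 3) (x : ℝ) :
    Tendsto (fun q : ℝ × ℝ => truncTHT f₁ f₂ f₃ q.1 q.2 x)
      (𝓝[>] (0 : ℝ) ×ˢ atTop) (𝓝 (THT f₁ f₂ f₃ x)) := by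
  simp only [truncTHT_eq, THT_eq]
  exact tendsto_trS h₁ h₂ h₃ ho x

/-- the uniform bound for the form, with a fourth function from the family `F` -/
def FormB (F : Set (ℝ → ℂ)) (c₁ c₂ c₃ c₄ : ℝ) : Prop :=
  ∃ C : ℝ, 0 ≤ C ∧ ∀ h ∈ F, ∀ g₁ g₂ g₃ : ℝ → ℂ, Nice g₁ → Nice g₂ → Nice g₃ →
    ∀ ε R : ℝ, 0 < ε → ε < R →
      ‖∫ p : ℝ × ℝ, bk ε R c₁ c₂ c₃ g₁ g₂ g₃ p * h (p.1 - c₄ * p.2)‖ ≤
        C * ((eLpNorm g₁ 3 volume).toReal * (eLpNorm g₂ 3 volume).toReal *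
          (eLpNorm g₃ 3 volume).toReal)

/-- the bound for the truncated operators -/
theorem trS_le {F : Set (ℝ → ℂ)} (hF : ∀ h ∈ F, CB h) {α β γ : ℝ} (hT : FormB F 0 α β γ) :
    ∃ C : ℝ, 0 ≤ C ∧ ∀ h ∈ F, ∀ f g : 𝓢(ℝ, ℂ), ∀ ε R : ℝ, 0 < ε → ε < R →
      eLpNorm (trS f g h α β γ ε R) (3 / 2) volume ≤
        ENNReal.ofReal C * eLpNorm f 3 volume * eLpNorm g 3 volume := by
  obtain ⟨C, hC, H⟩ := hT
  refine ⟨C, hC, fun h hh f g ε R hε hR => ?_⟩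
  have nf := nice_schwartz f
  have ng := nice_schwartz g
  have lf : eLpNorm f 3 volume ≠ ∞ := (nf.memLp (by norm_num) (by norm_num)).2.ne
  have lg : eLpNorm g 3 volume ≠ ∞ := (ng.memLp (by norm_num) (by norm_num)).2.ne
  have key := dual3 (α := α) (β := β) (γ := γ) (R := R) nf ng (CB_schwartz f) (CB_schwartz g)
    (hF h hh) hε (A := C * ((eLpNorm f 3 volume).toReal * (eLpNorm g 3 volume).toReal))
    (by positivity) fun u hu => by
      refine (H h hh u f g hu nf ng ε R hε hR).trans (le_of_eq ?_)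
      ring
  refine key.trans (le_of_eq ?_)
  rw [ENNReal.ofReal_mul hC, ENNReal.ofReal_mul ENNReal.toReal_nonneg, ENNReal.ofReal_toReal lf,
    ENNReal.ofReal_toReal lg, mul_assoc]

theorem int_schwartz (f : 𝓢(ℝ, ℂ)) : Integrable (f : ℝ → ℂ) := (nice_schwartz f).int

/-- **one structured argument, in each of the three slots** -/
theorem slots {F : Set (ℝ → ℂ)} (hF : ∀ h ∈ F, CB h) (h3 : FormB F 0 1 2 3)
    (h2 : FormB F 0 1 3 2) (h1 : FormB F 0 2 3 1) :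
    ∃ C : ℝ≥0∞, C < ∞ ∧ ∀ h ∈ F, ∀ f g : 𝓢(ℝ, ℂ),
      eLpNorm (THT h f g) (3 / 2) volume ≤ C * eLpNorm f 3 volume * eLpNorm g 3 volume ∧
      eLpNorm (THT f h g) (3 / 2) volume ≤ C * eLpNorm f 3 volume * eLpNorm g 3 volume ∧
      eLpNorm (THT f g h) (3 / 2) volume ≤ C * eLpNorm f 3 volume * eLpNorm g 3 volume := by
  obtain ⟨C₁, hC₁, H₁⟩ := trS_le hF h1
  obtain ⟨C₂, hC₂, H₂⟩ := trS_le hF h2
  obtain ⟨C₃, hC₃, H₃⟩ := trS_le hF h3
  refine ⟨ENNReal.ofReal (C₁ + C₂ + C₃), ENNReal.ofReal_lt_top, fun h hh f g => ?_⟩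
  have k₁ : ENNReal.ofReal C₁ ≤ ENNReal.ofReal (C₁ + C₂ + C₃) :=
    ENNReal.ofReal_le_ofReal (by linarith)
  have k₂ : ENNReal.ofReal C₂ ≤ ENNReal.ofReal (C₁ + C₂ + C₃) :=
    ENNReal.ofReal_le_ofReal (by linarith)
  have k₃ : ENNReal.ofReal C₃ ≤ ENNReal.ofReal (C₁ + C₂ + C₃) :=
    ENNReal.ofReal_le_ofReal (by linarith)
  have cf := CB_schwartz f
  have cg := CB_schwartz g
  have ch := hF h hh
  refine ⟨?_, ?_, ?_⟩
  · rw [THT_eq]
    refine limS_le ch cf cg (Or.inr (Or.inl ⟨int_schwartz f, by norm_num⟩)) fun ε R hε hR => ?_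
    have e : trS h f g 1 2 3 ε R = trS f g h 2 3 1 ε R := by
      funext x
      unfold trS
      congr 1
      funext t
      ring
    rw [e]
    exact (H₁ h hh f g ε R hε hR).trans (by gcongr)
  · rw [THT_eq]
    refine limS_le cf ch cg (Or.inl ⟨int_schwartz f, by norm_num⟩) fun ε R hε hR => ?_
    have e : trS f h g 1 2 3 ε R = trS f g h 1 3 2 ε R := by
      funext x
      unfold trS
      congr 1
      funext t
      ring
    rw [e]
    exact (H₂ h hh f g ε R hε hR).trans (by gcongr)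
  · rw [THT_eq]
    refine limS_le cf cg ch (Or.inl ⟨int_schwartz f, by norm_num⟩) fun ε R hε hR => ?_
    exact (H₃ h hh f g ε R hε hR).trans (by gcongr)

end Vale.Agent.P141.R2.H898
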