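import Vale.Agent.P141.R2.H860.NilForm
import Vale.Agent.P141.R2.H898.Slots
import Vale.Agent.P141.R2.H898.NilC

/-!
# The trilinear Hilbert transform with a two-step nilsequence, in each of the three slots
-/

namespace Vale.Agent.P141.R2.H898

open MeasureTheory Filter Topology Set
open scoped ENNReal SchwartzMap ContDiff
open Vale.Agent.P141.H97 (bk bk_meas bk_int Nice ph uu FF cshear cshear_emb)
open Vale.Agent.P141.R2.H860 (nil nil_form)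

theorem bk_eq_ph (ε R c₁ c₂ c₃ : ℝ) (g₁ g₂ g₃ : ℝ → ℂ) (p : ℝ × ℝ) :
    bk ε R c₁ c₂ c₃ g₁ g₂ g₃ p = ph ε R c₁ c₂ c₃ g₁ g₂ g₃ p.1 p.2 := by
  unfold bk ph uu FF
  by_cases ht : ε < |p.2| ∧ |p.2| < R
  · have ht' : p.2 ∈ {t : ℝ | ε < |t| ∧ |t| < R} := ht
    rw [indicator_of_mem ht', if_pos ht]
    ring
  · have ht' : p.2 ∉ {t : ℝ | ε < |t| ∧ |t| < R} := ht
    rw [indicator_of_notMem ht', if_neg ht, zero_mul]

/-- the shear puts the fourth function at slope zero -/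
theorem form_shear (ε R c₁ c₂ c₃ c₄ : ℝ) (g₁ g₂ g₃ h : ℝ → ℂ) :
    ∫ p : ℝ × ℝ, bk ε R c₁ c₂ c₃ g₁ g₂ g₃ p * h (p.1 - c₄ * p.2) =
      ∫ p : ℝ × ℝ, h p.1 * ph ε R (c₁ - c₄) (c₂ - c₄) (c₃ - c₄) g₁ g₂ g₃ p.1 p.2 := by
  rw [← (cshear c₄).integral_comp (cshear_emb c₄)]
  congr 1
  funext p
  rw [bk_eq_ph]
  unfold ph FF
  simp only
  have e : ∀ c : ℝ, p.1 + c₄ * p.2 - c * p.2 = p.1 - (c - c₄) * p.2 := fun c => by ring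
  rw [e c₁, e c₂, e c₃, e c₄, sub_self, zero_mul, sub_zero]
  ring

variable {d : ℕ}

/-- the family of all two-step nilsequences with a given test function -/
def nilFam (φ : (Fin d → ℝ) → ℂ) : Set (ℝ → ℂ) :=
  {h | ∃ (θ : Fin d → ℝ) (Q : Fin (d + 1) → Fin (d + 1) → ℝ) (l : Fin (d + 1) → ℝ) (c : ℝ),
    h = nil φ θ Q l c}

theorem formB_nil {φ : (Fin d → ℝ) → ℂ} (h1 : ContDiff ℝ ∞ φ) (h2 : HasCompactSupport φ)
    {c₁ c₂ c₃ c₄ : ℝ} (n₁ : c₁ ≠ c₄) (n₂ : c₂ ≠ c₄) (n₃ : c₃ ≠ c₄) (n : c₂ ≠ c₃) :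
    FormB (nilFam φ) c₁ c₂ c₃ c₄ := by
  obtain ⟨C, hC0, hC⟩ := nil_form φ h1 h2
  refine ⟨C * |(c₁ - c₄) * (c₂ - c₄) * (c₃ - c₄)| ^ ((1 : ℝ) / 3) *
    (|c₁ - c₄|⁻¹ + |c₂ - c₄|⁻¹ + |c₃ - c₄|⁻¹), by positivity, ?_⟩
  rintro h ⟨θ, Q, l, c, rfl⟩ g₁ g₂ g₃ m₁ m₂ m₃ ε R hε hR
  rw [form_shear]
  exact hC θ Q l c _ _ _ g₁ g₂ g₃ (sub_ne_zero.2 n₁) (sub_ne_zero.2 n₂) (sub_ne_zero.2 n₃)
    (fun e => n (by linarith)) m₁ m₂ m₃ ε R hε hR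

theorem CB_nilFam {φ : (Fin d → ℝ) → ℂ} (h1 : ContDiff ℝ ∞ φ) (h2 : HasCompactSupport φ) :
    ∀ h ∈ nilFam φ, CB h := by
  rintro h ⟨θ, Q, l, c, rfl⟩
  exact CB_nil h1 h2 θ Q l c

/-- **the trilinear Hilbert transform with a two-step nilsequence in one slot** -/
theorem nil_slots (φ : (Fin d → ℝ) → ℂ) (h1 : ContDiff ℝ ∞ φ) (h2 : HasCompactSupport φ) :
    ∃ C : ℝ≥0∞, C < ⊤ ∧ ∀ (θ : Fin d → ℝ) (Q : Fin (d + 1) → Fin (d + 1) → ℝ)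
      (l : Fin (d + 1) → ℝ) (c : ℝ) (f g : 𝓢(ℝ, ℂ)),
      eLpNorm (THT (nil φ θ Q l c) f g) (3 / 2) volume ≤
        C * eLpNorm f 3 volume * eLpNorm g 3 volume ∧
      eLpNorm (THT f (nil φ θ Q l c) g) (3 / 2) volume ≤
        C * eLpNorm f 3 volume * eLpNorm g 3 volume ∧
      eLpNorm (THT f g (nil φ θ Q l c)) (3 / 2) volume ≤
        C * eLpNorm f 3 volume * eLpNorm g 3 volume := by
  obtain ⟨C, hC, H⟩ := slots (F := nilFam φ) (CB_nilFam h1 h2)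
    (formB_nil h1 h2 (by norm_num) (by norm_num) (by norm_num) (by norm_num))
    (formB_nil h1 h2 (by norm_num) (by norm_num) (by norm_num) (by norm_num))
    (formB_nil h1 h2 (by norm_num) (by norm_num) (by norm_num) (by norm_num))
  exact ⟨C, hC, fun θ Q l c f g => H _ ⟨θ, Q, l, c, rfl⟩ f g⟩

/-- the limits which define these transforms exist at every point -/
theorem nil_limits (φ : (Fin d → ℝ) → ℂ) (h1 : ContDiff ℝ ∞ φ) (h2 : HasCompactSupport φ)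
    (θ : Fin d → ℝ) (Q : Fin (d + 1) → Fin (d + 1) → ℝ) (l : Fin (d + 1) → ℝ) (c : ℝ)
    (f g : 𝓢(ℝ, ℂ)) (x : ℝ) :
    Tendsto (fun q : ℝ × ℝ => truncTHT (nil φ θ Q l c) f g q.1 q.2 x)
      (𝓝[>] (0 : ℝ) ×ˢ atTop) (𝓝 (THT (nil φ θ Q l c) f g x)) ∧
    Tendsto (fun q : ℝ × ℝ => truncTHT f (nil φ θ Q l c) g q.1 q.2 x)
      (𝓝[>] (0 : ℝ) ×ˢ atTop) (𝓝 (THT f (nil φ θ Q l c) g x)) ∧
    Tendsto (fun q : ℝ × ℝ => truncTHT f g (nil φ θ Q l c) q.1 q.2 x)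
      (𝓝[>] (0 : ℝ) ×ˢ atTop) (𝓝 (THT f g (nil φ θ Q l c) x)) := by
  have cn := CB_nil h1 h2 θ Q l c
  have cf := CB_schwartz f
  have cg := CB_schwartz g
  exact ⟨tendsto_THT cn cf cg (Or.inr (Or.inl ⟨int_schwartz f, by norm_num⟩)) x,
    tendsto_THT cf cn cg (Or.inl ⟨int_schwartz f, by norm_num⟩) x,
    tendsto_THT cf cg cn (Or.inl ⟨int_schwartz f, by norm_num⟩) x⟩

end Vale.Agent.P141.R2.H898
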