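import Vale.Agent.P141.R2.H898.NilGen

/-!
# From the uniform form bound for a family of bounded `C^1` functions to all statements
-/

namespace Vale.Agent.P141.R2.H898

open MeasureTheory Filter Topology Set
open scoped ENNReal SchwartzMap ContDiff
open Vale.Agent.P141.H97 (bk bk_meas bk_int Nice ph uu FF cshear cshear_emb)
open Vale.Agent.P141.H115 (nice_schwartz)

/-- the uniform bound for the form with a structured function from the family `F` -/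
def FormU (F : Set (ℝ → ℂ)) : Prop :=
  ∃ C : ℝ, 0 ≤ C ∧ ∀ h ∈ F, ∀ (c₁ c₂ c₃ : ℝ) (f₁ f₂ f₃ : ℝ → ℂ), c₁ ≠ 0 → c₂ ≠ 0 → c₃ ≠ 0 →
    c₂ ≠ c₃ → Nice f₁ → Nice f₂ → Nice f₃ → ∀ ε R : ℝ, 0 < ε → ε < R →
      ‖∫ p : ℝ × ℝ, h p.1 * ph ε R c₁ c₂ c₃ f₁ f₂ f₃ p.1 p.2‖ ≤
        C * |c₁ * c₂ * c₃| ^ ((1 : ℝ) / 3) * (|c₁|⁻¹ + |c₂|⁻¹ + |c₃|⁻¹) *
          ((eLpNorm f₁ 3 volume).toReal * (eLpNorm f₂ 3 volume).toReal *
            (eLpNorm f₃ 3 volume).toReal)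

theorem formB_of {F : Set (ℝ → ℂ)} (hF : FormU F) {c₁ c₂ c₃ c₄ : ℝ} (n₁ : c₁ ≠ c₄)
    (n₂ : c₂ ≠ c₄) (n₃ : c₃ ≠ c₄) (n : c₂ ≠ c₃) : FormB F c₁ c₂ c₃ c₄ := by
  obtain ⟨C, hC0, hC⟩ := hF
  refine ⟨C * |(c₁ - c₄) * (c₂ - c₄) * (c₃ - c₄)| ^ ((1 : ℝ) / 3) *
    (|c₁ - c₄|⁻¹ + |c₂ - c₄|⁻¹ + |c₃ - c₄|⁻¹), by positivity, ?_⟩
  intro h hh g₁ g₂ g₃ m₁ m₂ m₃ ε R hε hR
  rw [form_shear]
  exact hC h hh _ _ _ g₁ g₂ g₃ (sub_ne_zero.2 n₁) (sub_ne_zero.2 n₂) (sub_ne_zero.2 n₃)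
    (fun e => n (by linarith)) m₁ m₂ m₃ ε R hε hR

/-- bound for all truncations, arbitrary slopes -/
theorem trunc_of {F : Set (ℝ → ℂ)} (hCB : ∀ h ∈ F, CB h) (hF : FormU F) :
    ∃ C : ℝ, 0 ≤ C ∧ ∀ h ∈ F, ∀ a₁ a₂ a₃ : ℝ, a₁ ≠ 0 → a₂ ≠ a₁ → a₃ ≠ a₁ → a₂ ≠ a₃ →
      ∀ f g : 𝓢(ℝ, ℂ), ∀ ε R : ℝ, 0 < ε → ε < R →
      eLpNorm (trS f g h a₂ a₃ a₁ ε R) (3 / 2) volume ≤
        ENNReal.ofReal (C * kap a₁ a₂ a₃) * eLpNorm f 3 volume * eLpNorm g 3 volume := by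
  obtain ⟨C, hC0, hC⟩ := hF
  refine ⟨C, hC0, fun h hh α₁ α₂ α₃ n₁ n₂ n₃ n f g ε R hε hR => ?_⟩
  have hk := kap_nonneg α₁ α₂ α₃
  have hCk : 0 ≤ C * kap α₁ α₂ α₃ := mul_nonneg hC0 hk
  have nf := nice_schwartz f
  have ng := nice_schwartz g
  have lf : eLpNorm f 3 volume ≠ ⊤ := (nf.memLp (by norm_num) (by norm_num)).2.ne
  have lg : eLpNorm g 3 volume ≠ ⊤ := (ng.memLp (by norm_num) (by norm_num)).2.ne
  have key := dual3 (α := α₂) (β := α₃) (γ := α₁) (R := R) nf ng (CB_schwartz f) (CB_schwartz g)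
    (hCB h hh) hε (A := C * kap α₁ α₂ α₃ *
      ((eLpNorm f 3 volume).toReal * (eLpNorm g 3 volume).toReal))
    (by positivity) fun u hu => by
      rw [form_shear]
      refine (hC h hh _ _ _ u f g (sub_ne_zero.2 (Ne.symm n₁)) (sub_ne_zero.2 n₂)
        (sub_ne_zero.2 n₃) (fun e => n (by linarith)) hu nf ng ε R hε hR).trans (le_of_eq ?_)
      unfold kap
      have e1 : |(0 - α₁) * (α₂ - α₁) * (α₃ - α₁)| = |α₁ * (α₂ - α₁) * (α₃ - α₁)| := by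
        rw [← abs_neg]
        congr 1
        ring
      have e2 : |0 - α₁| = |α₁| := by rw [zero_sub, abs_neg]
      rw [e1, e2]
      ring
  refine key.trans (le_of_eq ?_)
  rw [ENNReal.ofReal_mul hCk, ENNReal.ofReal_mul ENNReal.toReal_nonneg,
    ENNReal.ofReal_toReal lf, ENNReal.ofReal_toReal lg, mul_assoc]

/-- a function of the family as test function -/
theorem test_of {F : Set (ℝ → ℂ)} (hCB : ∀ h ∈ F, CB h) (hF : FormU F) :
    ∃ C : ℝ, 0 ≤ C ∧ ∀ h ∈ F, ∀ (f₁ f₂ f₃ : 𝓢(ℝ, ℂ)) (ε R : ℝ), 0 < ε → ε < R →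
        ‖∫ x, h x * truncTHT f₁ f₂ f₃ ε R x‖ ≤
          C * ((eLpNorm f₁ 3 volume).toReal * (eLpNorm f₂ 3 volume).toReal *
            (eLpNorm f₃ 3 volume).toReal) := by
  obtain ⟨C, hC0, hC⟩ := hF
  refine ⟨C * |(1 : ℝ) * 2 * 3| ^ ((1 : ℝ) / 3) * (|(1 : ℝ)|⁻¹ + |(2 : ℝ)|⁻¹ + |(3 : ℝ)|⁻¹),
    by positivity, fun k hk f g h ε R hε hR => ?_⟩
  have nf := nice_schwartz f
  have ng := nice_schwartz g
  have nh := nice_schwartz h
  have cn := hCB k hk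
  have key := hC k hk 1 2 3 f g h (by norm_num) (by norm_num) (by norm_num) (by norm_num)
    nf ng nh ε R hε hR
  have hI : Integrable (fun p : ℝ × ℝ => k p.1 * ph ε R 1 2 3 f g h p.1 p.2)
      (volume : Measure (ℝ × ℝ)) := by
    obtain ⟨cc, B, hB⟩ := cn
    have hb := bk_int (R := R) (α₁ := 1) (α₂ := 2) (α₃ := 3) hε nf ng nh
    refine (hb.norm.const_mul B).mono' ?_ (ae_of_all _ fun p => ?_)
    · exact ((cc.continuous.measurable.comp measurable_fst).mul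
        (Vale.Agent.P141.H97.ph_meas nf.meas ng.meas nh.meas)).aestronglyMeasurable
    · rw [norm_mul, bk_eq_ph]
      exact mul_le_mul_of_nonneg_right (hB _) (norm_nonneg _)
  have e : ∫ x, k x * truncTHT f g h ε R x =
      ∫ p : ℝ × ℝ, k p.1 * ph ε R 1 2 3 f g h p.1 p.2 := by
    rw [Measure.volume_eq_prod] at hI ⊢
    rw [integral_prod _ hI]
    congr 1
    funext x
    unfold truncTHT
    rw [← integral_indicator (Vale.Agent.P141.H97.setA_meas ε R), ← integral_const_mul]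
    congr 1
    funext t
    unfold ph uu FF
    by_cases ht : t ∈ {t : ℝ | ε < |t| ∧ |t| < R}
    · rw [indicator_of_mem ht, indicator_of_mem ht]
      simp only [one_mul]
      ring
    · rw [indicator_of_notMem ht, indicator_of_notMem ht]
      simp
  rw [e]
  exact key

/-- **all four parts from the form bound** -/
theorem bounds_of {F : Set (ℝ → ℂ)} (hCB : ∀ h ∈ F, CB h) (hF : FormU F) : Bounds F := by
  refine ⟨fun h hh f g x => ?_, ?_, ?_, test_of hCB hF⟩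
  · have cn := hCB h hh
    have cf := CB_schwartz f
    have cg := CB_schwartz g
    exact ⟨tendsto_THT cn cf cg (Or.inr (Or.inl ⟨int_schwartz f, by norm_num⟩)) x,
      tendsto_THT cf cn cg (Or.inl ⟨int_schwartz f, by norm_num⟩) x,
      tendsto_THT cf cg cn (Or.inl ⟨int_schwartz f, by norm_num⟩) x⟩
  · exact slots hCB
      (formB_of hF (by norm_num) (by norm_num) (by norm_num) (by norm_num))
      (formB_of hF (by norm_num) (by norm_num) (by norm_num) (by norm_num))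
      (formB_of hF (by norm_num) (by norm_num) (by norm_num) (by norm_num))
  · obtain ⟨C, hC0, hC⟩ := trunc_of hCB hF
    refine ⟨C, hC0, fun h hh α₁ α₂ α₃ n₁ n₂ n₃ n f g => ?_⟩
    have ho : OneInt f g h α₂ α₃ α₁ := by
      by_cases h0 : α₂ = 0
      · exact Or.inr (Or.inl ⟨int_schwartz g, fun e => n (by rw [h0, e])⟩)
      · exact Or.inl ⟨int_schwartz f, h0⟩
    exact ⟨limS f g h α₂ α₃ α₁,
      tendsto_trS (CB_schwartz f) (CB_schwartz g) (hCB h hh) ho,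
      hC h hh α₁ α₂ α₃ n₁ n₂ n₃ n f g,
      limS_le (CB_schwartz f) (CB_schwartz g) (hCB h hh) ho (hC h hh α₁ α₂ α₃ n₁ n₂ n₃ n f g)⟩

end Vale.Agent.P141.R2.H898
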