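import Vale.Agent.P141.R2.H860.Nil
import Vale.Agent.P141.R2.H898.PV

/-!
# Smooth functions on two-step nilmanifolds, in Malcev coordinates
-/

namespace Vale.Agent.P141.R2.H898

open MeasureTheory Filter Topology Set
open scoped ContDiff

/-- one-dimensional partition of unity -/
noncomputable def rho (s : ℝ) : ℝ := Real.smoothTransition (s + 1) - Real.smoothTransition s

theorem rho_contDiff : ContDiff ℝ ∞ rho := by
  unfold rho
  exact (Real.smoothTransition.contDiff.comp (contDiff_id.add contDiff_const)).sub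
    Real.smoothTransition.contDiff

theorem rho_zero {s : ℝ} (hs : s ∉ Icc (-1 : ℝ) 1) : rho s = 0 := by
  unfold rho
  rw [mem_Icc, not_and_or] at hs
  rcases hs with hs | hs
  · push Not at hs
    rw [Real.smoothTransition.zero_of_nonpos (by linarith),
      Real.smoothTransition.zero_of_nonpos (by linarith), sub_zero]
  · push Not at hs
    rw [Real.smoothTransition.one_of_one_le (by linarith),
      Real.smoothTransition.one_of_one_le (by linarith), sub_self]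

theorem rho_floor (s : ℝ) : ∑ n ∈ ({⌊s⌋, ⌊s⌋ + 1} : Finset ℤ), rho (s - n) = 1 := by
  have hne : (⌊s⌋ : ℤ) ≠ ⌊s⌋ + 1 := by simp
  rw [Finset.sum_pair hne]
  unfold rho
  push_cast
  have h1 : (⌊s⌋ : ℝ) ≤ s := Int.floor_le s
  have h2 : s < (⌊s⌋ : ℝ) + 1 := Int.lt_floor_add_one s
  rw [Real.smoothTransition.one_of_one_le (x := s - ⌊s⌋ + 1) (by linarith),
    Real.smoothTransition.zero_of_nonpos (x := s - (⌊s⌋ + 1)) (by linarith)]
  rw [show s - ((⌊s⌋ : ℝ) + 1) + 1 = s - ⌊s⌋ by ring]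
  ring

theorem rho_off {s : ℝ} {n : ℤ} (hn : n ∉ ({⌊s⌋, ⌊s⌋ + 1} : Finset ℤ)) : rho (s - n) = 0 := by
  have h1 : (⌊s⌋ : ℝ) ≤ s := Int.floor_le s
  have h2 : s < (⌊s⌋ : ℝ) + 1 := Int.lt_floor_add_one s
  simp only [Finset.mem_insert, Finset.mem_singleton, not_or] at hn
  obtain ⟨ha, hb⟩ := hn
  unfold rho
  rcases lt_or_gt_of_ne ha with hlt | hgt
  · have h3 : (n : ℝ) + 1 ≤ ⌊s⌋ := by exact_mod_cast hlt
    rw [Real.smoothTransition.one_of_one_le (by linarith),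
      Real.smoothTransition.one_of_one_le (by linarith), sub_self]
  · have h4 : ⌊s⌋ + 1 < n := by omega
    have h3 : (⌊s⌋ : ℝ) + 1 + 1 ≤ n := by exact_mod_cast h4
    rw [Real.smoothTransition.zero_of_nonpos (by linarith),
      Real.smoothTransition.zero_of_nonpos (by linarith), sub_zero]

/-- product partition of unity -/
noncomputable def rhoP {k : ℕ} (x : Fin k → ℝ) : ℝ := ∏ i, rho (x i)

theorem rhoP_contDiff {k : ℕ} : ContDiff ℝ ∞ (rhoP (k := k)) := by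
  unfold rhoP
  exact contDiff_prod fun i _ => rho_contDiff.comp (contDiff_apply ℝ ℝ i)

theorem rhoP_zero {k : ℕ} {x : Fin k → ℝ} (hx : x ∉ Icc (fun _ => (-1 : ℝ)) fun _ => 1) :
    rhoP x = 0 := by
  by_contra hne
  apply hx
  unfold rhoP at hne
  replace hne : ∏ i, rho (x i) ≠ 0 := hne
  rw [Finset.prod_ne_zero_iff] at hne
  have h : ∀ i, x i ∈ Icc (-1 : ℝ) 1 := fun i => by
    by_contra hc
    exact hne i (Finset.mem_univ i) (rho_zero hc)
  exact ⟨fun i => (h i).1, fun i => (h i).2⟩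

theorem rhoP_tsum {k : ℕ} (x : Fin k → ℝ) : ∑' n : Fin k → ℤ, rhoP (fun i => x i - n i) = 1 := by
  classical
  rw [tsum_eq_sum (s := Fintype.piFinset fun i => ({⌊x i⌋, ⌊x i⌋ + 1} : Finset ℤ))]
  · unfold rhoP
    rw [← Finset.prod_univ_sum (fun i => ({⌊x i⌋, ⌊x i⌋ + 1} : Finset ℤ))
      fun i n => rho (x i - n)]
    exact Finset.prod_eq_one fun i _ => rho_floor (x i)
  · intro n hn
    rw [Fintype.mem_piFinset] at hn
    push Not at hn
    obtain ⟨i, hi⟩ := hn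
    unfold rhoP
    exact Finset.prod_eq_zero (Finset.mem_univ i) (rho_off hi)

variable {d m : ℕ}

theorem Inv.sub {B : Fin m → Fin d → Fin d → ℤ} {F : (Fin d → ℝ) × (Fin m → ℝ) → ℂ}
    (h : Inv B F) (x : Fin d → ℝ) (z : Fin m → ℝ) (n : Fin d → ℤ) (k : Fin m → ℤ) :
    F (fun i => x i - n i, fun i => z i - bil B x (fun l => (n l : ℝ)) i - k i) = F (x, z) := by
  have h1 := h x z (fun i => -n i) (fun i => -k i)
  rw [← h1]
  congr 1
  refine Prod.ext ?_ ?_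
  · funext i
    simp only
    push_cast
    ring
  · funext i
    have e : bil B x (fun l => ((-n l : ℤ) : ℝ)) i = - bil B x (fun l => (n l : ℝ)) i := by
      unfold bil
      rw [← Finset.sum_neg_distrib]
      refine Finset.sum_congr rfl fun j _ => ?_
      rw [← Finset.sum_neg_distrib]
      refine Finset.sum_congr rfl fun l _ => ?_
      push_cast
      ring
    simp only
    rw [e]
    push_cast
    ring

theorem Inv.bdd {B : Fin m → Fin d → Fin d → ℤ} {F : (Fin d → ℝ) × (Fin m → ℝ) → ℂ}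
    (h : Inv B F) (hF : Continuous F) : ∃ M : ℝ, ∀ p, ‖F p‖ ≤ M := by
  have hK : IsCompact ((Icc (fun _ => (0 : ℝ)) fun _ => 1 : Set (Fin d → ℝ)) ×ˢ
      (Icc (fun _ => (0 : ℝ)) fun _ => 1 : Set (Fin m → ℝ))) :=
    isCompact_Icc.prod isCompact_Icc
  obtain ⟨M, hM⟩ := hK.exists_bound_of_continuousOn hF.continuousOn
  refine ⟨M, fun p => ?_⟩
  obtain ⟨x, z⟩ := p
  rw [← h.sub x z (fun i => ⌊x i⌋) (fun i => ⌊z i - bil B x (fun l => ((⌊x l⌋ : ℤ) : ℝ)) i⌋)]
  apply hM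
  refine ⟨⟨fun i => ?_, fun i => ?_⟩, ⟨fun i => ?_, fun i => ?_⟩⟩
  · exact Int.fract_nonneg (x i)
  · exact (Int.fract_lt_one (x i)).le
  · exact Int.fract_nonneg _
  · exact (Int.fract_lt_one _).le

theorem CB_orb {B : Fin m → Fin d → Fin d → ℤ} {F : (Fin d → ℝ) × (Fin m → ℝ) → ℂ}
    (h : Inv B F) (hF : ContDiff ℝ ∞ F) (θ θ₀ : Fin d → ℝ) (a b c : Fin m → ℝ) :
    CB (orb F θ θ₀ a b c) := by
  obtain ⟨M, hM⟩ := h.bdd hF.continuous
  refine ⟨?_, M, fun t => hM _⟩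
  have h1 : ContDiff ℝ ∞ fun t : ℝ => ((fun i => θ i * t + θ₀ i : Fin d → ℝ),
      (fun i => a i * t ^ 2 + b i * t + c i : Fin m → ℝ)) := by
    refine ContDiff.prodMk ?_ ?_
    · rw [contDiff_pi]
      intro i
      fun_prop
    · rw [contDiff_pi]
      intro i
      fun_prop
  exact (hF.comp h1).of_le (by simp)

/-- the cut-off function -/
noncomputable def cutF (F : (Fin d → ℝ) × (Fin m → ℝ) → ℂ) (p : (Fin d → ℝ) × (Fin m → ℝ)) : ℂ :=
  F p * (((rhoP p.1 : ℝ) : ℂ) * ((rhoP p.2 : ℝ) : ℂ))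

theorem cutF_contDiff {F : (Fin d → ℝ) × (Fin m → ℝ) → ℂ} (hF : ContDiff ℝ ∞ F) :
    ContDiff ℝ ∞ (cutF F) := by
  unfold cutF
  have h1 : ContDiff ℝ ∞ fun p : (Fin d → ℝ) × (Fin m → ℝ) => ((rhoP p.1 : ℝ) : ℂ) :=
    Complex.ofRealCLM.contDiff.comp (rhoP_contDiff.comp contDiff_fst)
  have h2 : ContDiff ℝ ∞ fun p : (Fin d → ℝ) × (Fin m → ℝ) => ((rhoP p.2 : ℝ) : ℂ) :=
    Complex.ofRealCLM.contDiff.comp (rhoP_contDiff.comp contDiff_snd)
  exact hF.mul (h1.mul h2)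

theorem cutF_compact (F : (Fin d → ℝ) × (Fin m → ℝ) → ℂ) : HasCompactSupport (cutF F) := by
  have hK : IsCompact ((Icc (fun _ => (-1 : ℝ)) fun _ => 1 : Set (Fin d → ℝ)) ×ˢ
      (Icc (fun _ => (-1 : ℝ)) fun _ => 1 : Set (Fin m → ℝ))) :=
    isCompact_Icc.prod isCompact_Icc
  refine HasCompactSupport.intro hK fun p hp => ?_
  rw [mem_prod, not_and_or] at hp
  unfold cutF
  rcases hp with hp | hp
  · rw [rhoP_zero hp]; simp
  · rw [rhoP_zero hp]; simp

/-- **the orbit as a double sum** -/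
theorem orb_eq {B : Fin m → Fin d → Fin d → ℤ} {F : (Fin d → ℝ) × (Fin m → ℝ) → ℂ}
    (h : Inv B F) (θ θ₀ : Fin d → ℝ) (a b c : Fin m → ℝ) (t : ℝ) :
    orb F θ θ₀ a b c t = ∑' n : Fin d → ℤ, ∑' k : Fin m → ℤ,
      cutF F (fun i => θ i * t + θ₀ i - n i, fun j => (a j * t ^ 2 + b j * t + c j -
        bil B (fun i => θ i * t + θ₀ i) (fun l => (n l : ℝ)) j) - k j) := by
  have e1 : ∀ (n : Fin d → ℤ) (k : Fin m → ℤ),
      cutF F (fun i => θ i * t + θ₀ i - n i, fun j => (a j * t ^ 2 + b j * t + c j -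
        bil B (fun i => θ i * t + θ₀ i) (fun l => (n l : ℝ)) j) - k j) =
      orb F θ θ₀ a b c t * ((((rhoP fun i => θ i * t + θ₀ i - n i : ℝ)) : ℂ) *
        (((rhoP fun j => (a j * t ^ 2 + b j * t + c j -
        bil B (fun i => θ i * t + θ₀ i) (fun l => (n l : ℝ)) j) - k j : ℝ)) : ℂ)) := by
    intro n k
    unfold cutF orb
    rw [h.sub]
  simp only [e1]
  have e2 : ∀ x : Fin m → ℝ, ∑' k : Fin m → ℤ, (((rhoP fun j => x j - k j : ℝ)) : ℂ) = 1 := by
    intro x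
    rw [← Complex.ofReal_tsum, rhoP_tsum, Complex.ofReal_one]
  have e3 : ∀ x : Fin d → ℝ, ∑' k : Fin d → ℤ, (((rhoP fun j => x j - k j : ℝ)) : ℂ) = 1 := by
    intro x
    rw [← Complex.ofReal_tsum, rhoP_tsum, Complex.ofReal_one]
  simp only [tsum_mul_left, e2, mul_one, e3]

end Vale.Agent.P141.R2.H898
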