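import Vale.Agent.P141.R2.H860.DSum
import Vale.Agent.P141.R2.H898.NilC

/-!
# The double sums are smooth and bounded
-/

namespace Vale.Agent.P141.R2.H898

open MeasureTheory Filter Topology Set
open Vale.Agent.P141.R2.H860
open scoped ContDiff

variable {d m : ℕ}

theorem contDiff_pt (θ θ₀ : Fin d → ℝ) (Q : Fin m → Fin (d + 1) → Fin (d + 1) → ℝ)
    (l : Fin m → Fin (d + 1) → ℝ) (c : Fin m → ℝ) (n : Fin d → ℤ) (k : Fin m → ℤ) :
    ContDiff ℝ ∞ fun t : ℝ => pt θ θ₀ Q l c n k t := by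
  rw [contDiff_pi]
  intro s
  rcases s with a | r
  · simp only [pt, Sum.elim_inl]
    exact ((contDiff_const.mul contDiff_id).add contDiff_const).sub contDiff_const
  · simp only [pt, Sum.elim_inr]
    exact (contDiff_quad (Q r) (l r) (c r) _).sub contDiff_const

/-- the quadratic polynomials are bounded on an interval, for finitely many `n` -/
theorem quad_bdd_loc (Q : Fin m → Fin (d + 1) → Fin (d + 1) → ℝ) (l : Fin m → Fin (d + 1) → ℝ)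
    (c : Fin m → ℝ) (S : Finset (Fin d → ℤ)) (t₀ : ℝ) :
    ∃ K : ℝ, ∀ n ∈ S, ∀ r, ∀ t ∈ Icc (t₀ - 1) (t₀ + 1),
      |quad (Q r) (l r) (c r) (Fin.cons t fun i => (n i : ℝ))| ≤ K := by
  have h0 : ∀ (n : Fin d → ℤ) (r : Fin m), ∃ K : ℝ, ∀ t ∈ Icc (t₀ - 1) (t₀ + 1),
      |quad (Q r) (l r) (c r) (Fin.cons t fun i => (n i : ℝ))| ≤ K := by
    intro n r
    obtain ⟨K, hK⟩ := (isCompact_Icc (a := t₀ - 1) (b := t₀ + 1)).exists_bound_of_continuousOn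
      (contDiff_quad (Q r) (l r) (c r) fun i => (n i : ℝ)).continuous.continuousOn
    exact ⟨K, fun t ht => by simpa [Real.norm_eq_abs] using hK t ht⟩
  choose K hK using h0
  refine ⟨∑ n ∈ S, ∑ r, |K n r|, fun n hn r t ht => ?_⟩
  refine (hK n r t ht).trans ((le_abs_self _).trans ?_)
  refine le_trans ?_ (Finset.single_le_sum (f := fun n => ∑ r, |K n r|)
    (fun n _ => Finset.sum_nonneg fun r _ => abs_nonneg _) hn)
  exact Finset.single_le_sum (f := fun r => |K n r|) (fun r _ => abs_nonneg _)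
    (Finset.mem_univ r)

/-- near a point only finitely many terms act -/
theorem dsum_loc {Ψ : (Fin d ⊕ Fin m → ℝ) → ℂ}
    (h2 : HasCompactSupport Ψ) (θ θ₀ : Fin d → ℝ)
    (Q : Fin m → Fin (d + 1) → Fin (d + 1) → ℝ) (l : Fin m → Fin (d + 1) → ℝ)
    (c : Fin m → ℝ) (t₀ : ℝ) : ∃ S : Finset ((Fin d → ℤ) × (Fin m → ℤ)),
      ∀ t, |t - t₀| < 1 → ∀ p, p ∉ S → Ψ (pt θ θ₀ Q l c p.1 p.2 t) = 0 := by
  classical
  obtain ⟨M, hM⟩ : ∃ M : ℝ, ∀ u, Ψ u ≠ 0 → ‖u‖ ≤ M := by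
    obtain ⟨M, hM⟩ := h2.isCompact.isBounded.subset_closedBall 0
    refine ⟨M, fun u hu => ?_⟩
    have := hM (subset_tsupport Ψ hu)
    simpa using this
  set S : Finset (Fin d → ℤ) := Fintype.piFinset fun i =>
    Finset.Icc (⌊θ i * t₀ + θ₀ i - |θ i| - M⌋) (⌈θ i * t₀ + θ₀ i + |θ i| + M⌉) with hS
  obtain ⟨K, hK⟩ := quad_bdd_loc Q l c S t₀
  set S' : Finset (Fin m → ℤ) := Fintype.piFinset fun _ =>
    Finset.Icc (⌊-K - M⌋) (⌈K + M⌉) with hS'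
  refine ⟨S ×ˢ S', fun t h5 p hp => ?_⟩
  by_contra hne
  apply hp
  have h3 := hM _ hne
  have hpS : p.1 ∈ S := by
    rw [hS, Fintype.mem_piFinset]
    intro a
    have h4 := (norm_le_pi_norm (pt θ θ₀ Q l c p.1 p.2 t) (Sum.inl a)).trans h3
    simp only [pt, Sum.elim_inl, Real.norm_eq_abs] at h4
    rw [abs_le] at h4
    have h6 : |θ a * (t - t₀)| ≤ |θ a| := by
      rw [abs_mul]
      nlinarith [abs_nonneg (θ a), abs_nonneg (t - t₀)]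
    rw [abs_le] at h6
    have e1 : θ a * (t - t₀) = θ a * t - θ a * t₀ := by ring
    rw [e1] at h6
    rw [Finset.mem_Icc]
    constructor
    · have h7 : θ a * t₀ + θ₀ a - |θ a| - M ≤ p.1 a := by linarith [h4.1, h4.2, h6.1, h6.2]
      exact Int.floor_le_iff.2 (by linarith)
    · have h7 : (p.1 a : ℝ) ≤ θ a * t₀ + θ₀ a + |θ a| + M := by
        linarith [h4.1, h4.2, h6.1, h6.2]
      exact Int.le_ceil_iff.2 (by linarith)
  rw [Finset.mem_product]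
  refine ⟨hpS, ?_⟩
  rw [hS', Fintype.mem_piFinset]
  intro r
  have h4 := (norm_le_pi_norm (pt θ θ₀ Q l c p.1 p.2 t) (Sum.inr r)).trans h3
  simp only [pt, Sum.elim_inr, Real.norm_eq_abs] at h4
  rw [abs_le] at h4
  have ht2 : t ∈ Icc (t₀ - 1) (t₀ + 1) := by
    rw [abs_lt] at h5
    exact ⟨by linarith [h5.1], by linarith [h5.2]⟩
  have h8 := abs_le.1 (hK p.1 hpS r t ht2)
  rw [Finset.mem_Icc]
  constructor
  · have h7 : -K - M ≤ p.2 r := by linarith [h4.1, h4.2, h8.1, h8.2]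
    exact Int.floor_le_iff.2 (by linarith)
  · have h7 : (p.2 r : ℝ) ≤ K + M := by linarith [h4.1, h4.2, h8.1, h8.2]
    exact Int.le_ceil_iff.2 (by linarith)

theorem dsum_term_summable {Ψ : (Fin d ⊕ Fin m → ℝ) → ℂ}
    (h2 : HasCompactSupport Ψ) (θ θ₀ : Fin d → ℝ)
    (Q : Fin m → Fin (d + 1) → Fin (d + 1) → ℝ) (l : Fin m → Fin (d + 1) → ℝ)
    (c : Fin m → ℝ) (t : ℝ) :
    Summable fun p : (Fin d → ℤ) × (Fin m → ℤ) => Ψ (pt θ θ₀ Q l c p.1 p.2 t) := by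
  obtain ⟨S, hS⟩ := dsum_loc h2 θ θ₀ Q l c t
  exact summable_of_ne_finset_zero (s := S) fun p hp => hS t (by simp) p hp

theorem contDiff_dsum {Ψ : (Fin d ⊕ Fin m → ℝ) → ℂ} (h1 : ContDiff ℝ ∞ Ψ)
    (h2 : HasCompactSupport Ψ) (θ θ₀ : Fin d → ℝ)
    (Q : Fin m → Fin (d + 1) → Fin (d + 1) → ℝ) (l : Fin m → Fin (d + 1) → ℝ)
    (c : Fin m → ℝ) : ContDiff ℝ ∞ (dsum Ψ θ θ₀ Q l c) := by
  rw [contDiff_iff_contDiffAt]
  intro t₀
  obtain ⟨S, hS⟩ := dsum_loc h2 θ θ₀ Q l c t₀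
  have hev : dsum Ψ θ θ₀ Q l c =ᶠ[𝓝 t₀] fun t => ∑ p ∈ S,
      Ψ (pt θ θ₀ Q l c p.1 p.2 t) := by
    filter_upwards [Metric.ball_mem_nhds t₀ one_pos] with t ht
    unfold dsum
    refine tsum_eq_sum fun p hp => hS t ?_ p hp
    rwa [Metric.mem_ball, Real.dist_eq] at ht
  refine ContDiffAt.congr_of_eventuallyEq ?_ hev
  exact (ContDiff.sum fun p _ => h1.comp (contDiff_pt θ θ₀ Q l c p.1 p.2)).contDiffAt

theorem dsum_bdd {Ψ : (Fin d ⊕ Fin m → ℝ) → ℂ} (h1 : ContDiff ℝ ∞ Ψ)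
    (h2 : HasCompactSupport Ψ) :
    ∃ B : ℝ, ∀ (θ θ₀ : Fin d → ℝ) (Q : Fin m → Fin (d + 1) → Fin (d + 1) → ℝ)
      (l : Fin m → Fin (d + 1) → ℝ) (c : Fin m → ℝ) (t : ℝ), ‖dsum Ψ θ θ₀ Q l c t‖ ≤ B := by
  obtain ⟨J, ψ, hψ, h⟩ := dsum_split Ψ h1 h2
  refine ⟨∑ _p ∈ J, ∫ ξ, ‖ψ ξ‖, fun θ θ₀ Q l c t => ?_⟩
  have e := h θ θ₀ Q l c t 0 0
  rw [add_zero, add_zero] at e
  rw [e]
  refine norm_sum_le_of_le _ fun p _ => ?_
  refine (norm_integral_le_integral_norm _).trans (le_of_eq ?_)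
  refine integral_congr_ae (ae_of_all _ fun ξ => ?_)
  simp only [norm_mul, UU, VV, WW, norm_ee, mul_one]

/-- the double sums are bounded and continuously differentiable -/
theorem CB_dsum {Ψ : (Fin d ⊕ Fin m → ℝ) → ℂ} (h1 : ContDiff ℝ ∞ Ψ)
    (h2 : HasCompactSupport Ψ) (θ θ₀ : Fin d → ℝ)
    (Q : Fin m → Fin (d + 1) → Fin (d + 1) → ℝ) (l : Fin m → Fin (d + 1) → ℝ)
    (c : Fin m → ℝ) : CB (dsum Ψ θ θ₀ Q l c) := by
  obtain ⟨B, hB⟩ := dsum_bdd h1 h2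
  exact ⟨(contDiff_dsum h1 h2 θ θ₀ Q l c).of_le (by simp), B, hB θ θ₀ Q l c⟩

end Vale.Agent.P141.R2.H898
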