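import Vale.Agent.P141.R2.H898.PV
import Vale.Agent.P141.H97.Dual
import Vale.Agent.P141.H115.Final

/-!
# From the trilinear form with a bounded fourth function to the operator, exponents (3, 3, 3/2)
-/

namespace Vale.Agent.P141.R2.H898

open MeasureTheory Filter Topology Set
open scoped ENNReal SchwartzMap
open Vale.Agent.P141.H97 (bk bk_meas bk_int Nice Simp NN NN_nonneg elp_NN dual)

variable {f₁ f₂ h : ℝ → ℂ} {α β γ ε R : ℝ}

theorem bkh_meas {g : ℝ → ℂ} (hg : Measurable g) (h₁ : Measurable f₁) (h₂ : Measurable f₂)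
    (hh : Measurable h) :
    Measurable fun p : ℝ × ℝ => bk ε R 0 α β g f₁ f₂ p * h (p.1 - γ * p.2) := by
  refine (bk_meas hg h₁ h₂).mul (hh.comp ?_)
  fun_prop

theorem bkh_int {g : ℝ → ℂ} (hε : 0 < ε) (hg : Nice g) (h₁ : Nice f₁) (h₂ : Nice f₂)
    (hh : CB h) :
    Integrable (fun p : ℝ × ℝ => bk ε R 0 α β g f₁ f₂ p * h (p.1 - γ * p.2)) := by
  obtain ⟨c, B, hB⟩ := hh
  refine ((bk_int (R := R) (α₁ := 0) (α₂ := α) (α₃ := β) hε hg h₁ h₂).norm.mul_const B).mono'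
    (bkh_meas hg.meas h₁.meas h₂.meas c.continuous.measurable).aestronglyMeasurable
    (ae_of_all _ fun p => ?_)
  rw [norm_mul]
  exact mul_le_mul_of_nonneg_left (hB _) (norm_nonneg _)

theorem trS_bdd (hε : 0 < ε) (h₁ : CB f₁) (h₂ : CB f₂) (hh : CB h) :
    ∃ B : ℝ, ∀ x, ‖trS f₁ f₂ h α β γ ε R x‖ ≤ B := by
  obtain ⟨-, B₁, b₁⟩ := h₁
  obtain ⟨-, B₂, b₂⟩ := h₂
  obtain ⟨-, B₃, b₃⟩ := hh
  have n₁ : 0 ≤ B₁ := (norm_nonneg _).trans (b₁ 0)
  have n₂ : 0 ≤ B₂ := (norm_nonneg _).trans (b₂ 0)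
  have n₃ : 0 ≤ B₃ := (norm_nonneg _).trans (b₃ 0)
  have hfin : volume {t : ℝ | ε < |t| ∧ |t| < R} < ∞ := by
    refine (measure_mono (t := Ioo (-R) R) fun t ht => abs_lt.1 ht.2).trans_lt ?_
    rw [Real.volume_Ioo]
    exact ENNReal.ofReal_lt_top
  refine ⟨B₁ * B₂ * B₃ / ε * (volume {t : ℝ | ε < |t| ∧ |t| < R}).toReal, fun x => ?_⟩
  unfold trS
  refine norm_setIntegral_le_of_norm_le_const hfin fun t ht => ?_
  rw [norm_div, norm_mul, norm_mul, Complex.norm_real, Real.norm_eq_abs]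
  have e1 := b₁ (x - α * t)
  have e2 := b₂ (x - β * t)
  have e3 := b₃ (x - γ * t)
  have e4 : ε ≤ |t| := ht.1.le
  gcongr

/-- the form is the pairing with the operator -/
theorem pair3 {g : ℝ → ℂ} (hε : 0 < ε) (hg : Nice g) (h₁ : Nice f₁) (h₂ : Nice f₂)
    (hh : CB h) :
    ∫ x, g x * trS f₁ f₂ h α β γ ε R x =
      ∫ p : ℝ × ℝ, bk ε R 0 α β g f₁ f₂ p * h (p.1 - γ * p.2) := by
  have hI := bkh_int (R := R) (α := α) (β := β) (γ := γ) hε hg h₁ h₂ hh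
  rw [Measure.volume_eq_prod] at hI ⊢
  rw [integral_prod _ hI]
  congr 1
  funext x
  unfold trS
  rw [← integral_indicator (Vale.Agent.P141.H97.setA_meas ε R), ← integral_const_mul]
  congr 1
  funext t
  unfold bk
  by_cases ht : ε < |t| ∧ |t| < R
  · have ht' : t ∈ {t : ℝ | ε < |t| ∧ |t| < R} := ht
    rw [indicator_of_mem ht', if_pos ht]
    simp only [zero_mul, sub_zero]
    ring
  · have ht' : t ∉ {t : ℝ | ε < |t| ∧ |t| < R} := ht
    rw [indicator_of_notMem ht', if_neg ht]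
    simp

theorem e32 : ENNReal.ofReal (1 / (1 - 1 / 3)) = 3 / 2 := by
  rw [← ENNReal.toReal_eq_toReal_iff' ENNReal.ofReal_ne_top (by
    exact ENNReal.div_ne_top (by norm_num) (by norm_num)),
    ENNReal.toReal_ofReal (by norm_num), ENNReal.toReal_div]
  norm_num

/-- **duality** -/
theorem dual3 (n₁ : Nice f₁) (n₂ : Nice f₂) (c₁ : CB f₁) (c₂ : CB f₂) (hh : CB h)
    (hε : 0 < ε) {A : ℝ} (hA : 0 ≤ A)
    (H : ∀ g : ℝ → ℂ, Nice g →
      ‖∫ p : ℝ × ℝ, bk ε R 0 α β g f₁ f₂ p * h (p.1 - γ * p.2)‖ ≤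
        A * (eLpNorm g 3 volume).toReal) :
    eLpNorm (trS f₁ f₂ h α β γ ε R) (3 / 2) volume ≤ ENNReal.ofReal A := by
  obtain ⟨B, hB⟩ := trS_bdd (R := R) (α := α) (β := β) (γ := γ) hε c₁ c₂ hh
  rw [← e32]
  refine dual (by norm_num) (by norm_num) (trS_meas c₁ c₂ hh ε R).measurable hB hA
    fun g hg => ?_
  rw [pair3 hε hg.nice n₁ n₂ hh]
  refine (H g hg.nice).trans (le_of_eq ?_)
  have e3 : (3 : ℝ≥0∞).toReal = 3 := by norm_num
  have n0 := NN_nonneg g 3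
  rw [elp_NN (hg.nice.memLp (by norm_num) (by norm_num)) (by norm_num) (by norm_num), e3,
    ENNReal.toReal_ofReal (by positivity)]
  norm_num

end Vale.Agent.P141.R2.H898
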