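import Vale.Agent.P141.R2.H898.NilSlots

/-!
# Two-step nilsequences: general slopes, with an explicit dependence on the slopes
-/

namespace Vale.Agent.P141.R2.H898

open MeasureTheory Filter Topology Set
open scoped ENNReal SchwartzMap ContDiff
open Vale.Agent.P141.H97 (bk bk_meas bk_int Nice ph uu FF cshear cshear_emb)
open Vale.Agent.P141.H115 (nice_schwartz)
open Vale.Agent.P141.R2.H860 (nil nil_form)

variable {d : ℕ}

/-- the dependence on the slopes -/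
noncomputable def kap (α₁ α₂ α₃ : ℝ) : ℝ :=
  |α₁ * (α₂ - α₁) * (α₃ - α₁)| ^ ((1 : ℝ) / 3) * (|α₁|⁻¹ + |α₂ - α₁|⁻¹ + |α₃ - α₁|⁻¹)

theorem kap_nonneg (α₁ α₂ α₃ : ℝ) : 0 ≤ kap α₁ α₂ α₃ := by
  unfold kap
  positivity

/-- bound for all truncations, with the nilsequence at the slope `α₁` -/
theorem nil_trunc (φ : (Fin d → ℝ) → ℂ) (h1 : ContDiff ℝ ∞ φ) (h2 : HasCompactSupport φ) :
    ∃ C : ℝ, 0 ≤ C ∧ ∀ (θ : Fin d → ℝ) (Q : Fin (d + 1) → Fin (d + 1) → ℝ)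
      (l : Fin (d + 1) → ℝ) (c α₁ α₂ α₃ : ℝ), α₁ ≠ 0 → α₂ ≠ α₁ → α₃ ≠ α₁ → α₂ ≠ α₃ →
      ∀ f g : 𝓢(ℝ, ℂ), ∀ ε R : ℝ, 0 < ε → ε < R →
      eLpNorm (trS f g (nil φ θ Q l c) α₂ α₃ α₁ ε R) (3 / 2) volume ≤
        ENNReal.ofReal (C * kap α₁ α₂ α₃) * eLpNorm f 3 volume * eLpNorm g 3 volume := by
  obtain ⟨C, hC0, hC⟩ := nil_form φ h1 h2
  refine ⟨C, hC0, fun θ Q l c α₁ α₂ α₃ n₁ n₂ n₃ n f g ε R hε hR => ?_⟩
  have hk := kap_nonneg α₁ α₂ α₃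
  have hCk : 0 ≤ C * kap α₁ α₂ α₃ := mul_nonneg hC0 hk
  have nf := nice_schwartz f
  have ng := nice_schwartz g
  have lf : eLpNorm f 3 volume ≠ ⊤ := (nf.memLp (by norm_num) (by norm_num)).2.ne
  have lg : eLpNorm g 3 volume ≠ ⊤ := (ng.memLp (by norm_num) (by norm_num)).2.ne
  have key := dual3 (α := α₂) (β := α₃) (γ := α₁) (R := R) nf ng (CB_schwartz f) (CB_schwartz g)
    (CB_nil h1 h2 θ Q l c) hε (A := C * kap α₁ α₂ α₃ *
      ((eLpNorm f 3 volume).toReal * (eLpNorm g 3 volume).toReal))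
    (by positivity) fun u hu => by
      rw [form_shear]
      refine (hC θ Q l c _ _ _ u f g (sub_ne_zero.2 (Ne.symm n₁)) (sub_ne_zero.2 n₂)
        (sub_ne_zero.2 n₃) (fun e => n (by linarith)) hu nf ng ε R hε hR).trans (le_of_eq ?_)
      unfold kap
      have e1 : |(0 - α₁) * (α₂ - α₁) * (α₃ - α₁)| = |α₁ * (α₂ - α₁) * (α₃ - α₁)| := by
        rw [← abs_neg]
        congr 1
        ring
      have e2 : |0 - α₁| = |α₁| := by rw [zero_sub, abs_neg]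
      rw [e1, e2]
      ring
  refine key.trans (le_of_eq ?_)
  rw [ENNReal.ofReal_mul hCk, ENNReal.ofReal_mul ENNReal.toReal_nonneg,
    ENNReal.ofReal_toReal lf, ENNReal.ofReal_toReal lg, mul_assoc]

/-- existence and bound of the limit, with the nilsequence at the slope `α₁` -/
theorem nil_gen (φ : (Fin d → ℝ) → ℂ) (h1 : ContDiff ℝ ∞ φ) (h2 : HasCompactSupport φ) :
    ∃ C : ℝ, 0 ≤ C ∧ ∀ (θ : Fin d → ℝ) (Q : Fin (d + 1) → Fin (d + 1) → ℝ)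
      (l : Fin (d + 1) → ℝ) (c α₁ α₂ α₃ : ℝ), α₁ ≠ 0 → α₂ ≠ α₁ → α₃ ≠ α₁ → α₂ ≠ α₃ →
      ∀ f g : 𝓢(ℝ, ℂ),
      (∀ x, Tendsto (fun q : ℝ × ℝ => trS f g (nil φ θ Q l c) α₂ α₃ α₁ q.1 q.2 x)
        (𝓝[>] (0 : ℝ) ×ˢ atTop) (𝓝 (limS f g (nil φ θ Q l c) α₂ α₃ α₁ x))) ∧
      (∀ ε R : ℝ, 0 < ε → ε < R →
        eLpNorm (trS f g (nil φ θ Q l c) α₂ α₃ α₁ ε R) (3 / 2) volume ≤
          ENNReal.ofReal (C * kap α₁ α₂ α₃) * eLpNorm f 3 volume * eLpNorm g 3 volume) ∧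
      eLpNorm (limS f g (nil φ θ Q l c) α₂ α₃ α₁) (3 / 2) volume ≤
        ENNReal.ofReal (C * kap α₁ α₂ α₃) * eLpNorm f 3 volume * eLpNorm g 3 volume := by
  obtain ⟨C, hC0, hC⟩ := nil_trunc φ h1 h2
  refine ⟨C, hC0, fun θ Q l c α₁ α₂ α₃ n₁ n₂ n₃ n f g => ?_⟩
  have ho : OneInt f g (nil φ θ Q l c) α₂ α₃ α₁ := by
    by_cases h0 : α₂ = 0
    · exact Or.inr (Or.inl ⟨int_schwartz g, fun h => n (by rw [h0, h])⟩)
    · exact Or.inl ⟨int_schwartz f, h0⟩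
  have ht := tendsto_trS (CB_schwartz f) (CB_schwartz g) (CB_nil h1 h2 θ Q l c) ho
  exact ⟨ht, hC θ Q l c α₁ α₂ α₃ n₁ n₂ n₃ n f g, limS_le (CB_schwartz f) (CB_schwartz g)
    (CB_nil h1 h2 θ Q l c) ho (hC θ Q l c α₁ α₂ α₃ n₁ n₂ n₃ n f g)⟩

/-- the nilsequence as a test function -/
theorem nil_test (φ : (Fin d → ℝ) → ℂ) (h1 : ContDiff ℝ ∞ φ) (h2 : HasCompactSupport φ) :
    ∃ C : ℝ, 0 ≤ C ∧ ∀ (θ : Fin d → ℝ) (Q : Fin (d + 1) → Fin (d + 1) → ℝ)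
      (l : Fin (d + 1) → ℝ) (c : ℝ) (f g h : 𝓢(ℝ, ℂ)) (ε R : ℝ), 0 < ε → ε < R →
      ‖∫ x, nil φ θ Q l c x * truncTHT f g h ε R x‖ ≤
        C * ((eLpNorm f 3 volume).toReal * (eLpNorm g 3 volume).toReal *
          (eLpNorm h 3 volume).toReal) := by
  obtain ⟨C, hC0, hC⟩ := nil_form φ h1 h2
  refine ⟨C * |(1 : ℝ) * 2 * 3| ^ ((1 : ℝ) / 3) * (|(1 : ℝ)|⁻¹ + |(2 : ℝ)|⁻¹ + |(3 : ℝ)|⁻¹),
    by positivity, fun θ Q l c f g h ε R hε hR => ?_⟩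
  have nf := nice_schwartz f
  have ng := nice_schwartz g
  have nh := nice_schwartz h
  have cn := CB_nil h1 h2 θ Q l c
  have key := hC θ Q l c 1 2 3 f g h (by norm_num) (by norm_num) (by norm_num) (by norm_num)
    nf ng nh ε R hε hR
  have hI : Integrable (fun p : ℝ × ℝ => nil φ θ Q l c p.1 * ph ε R 1 2 3 f g h p.1 p.2)
      (volume : Measure (ℝ × ℝ)) := by
    obtain ⟨cc, B, hB⟩ := cn
    have hb := bk_int (R := R) (α₁ := 1) (α₂ := 2) (α₃ := 3) hε nf ng nh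
    refine (hb.norm.const_mul B).mono' ?_ (ae_of_all _ fun p => ?_)
    · exact ((cc.continuous.measurable.comp measurable_fst).mul
        (Vale.Agent.P141.H97.ph_meas nf.meas ng.meas nh.meas)).aestronglyMeasurable
    · rw [norm_mul, bk_eq_ph]
      exact mul_le_mul_of_nonneg_right (hB _) (norm_nonneg _)
  have e : ∫ x, nil φ θ Q l c x * truncTHT f g h ε R x =
      ∫ p : ℝ × ℝ, nil φ θ Q l c p.1 * ph ε R 1 2 3 f g h p.1 p.2 := by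
    rw [Measure.volume_eq_prod] at hI ⊢
    rw [integral_prod _ hI]
    congr 1
    funext x
    unfold truncTHT
    rw [← integral_indicator (Vale.Agent.P141.H97.setA_meas ε R), ← integral_const_mul]
    congr 1
    funext t
    unfold ph uu FF
    by_cases ht : t ∈ {t : ℝ | ε < |t| ∧ |t| < R}
    · rw [indicator_of_mem ht, indicator_of_mem ht]
      simp only [one_mul]
      ring
    · rw [indicator_of_notMem ht, indicator_of_notMem ht]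
      simp
  rw [e]
  exact key

end Vale.Agent.P141.R2.H898
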